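import Mathlib

/-!
# Integer lemmas: unique natural-number witnesses for divisibility and non-divisibility
-/

namespace Vale.Agent.H92.P345

theorem sq3_eq_zero_iff (x y z : ℤ) : x ^ 2 + y ^ 2 + z ^ 2 = 0 ↔ x = 0 ∧ y = 0 ∧ z = 0 := by
  constructor
  · intro h
    refine ⟨?_, ?_, ?_⟩ <;> nlinarith [sq_nonneg x, sq_nonneg y, sq_nonneg z]
  · rintro ⟨rfl, rfl, rfl⟩; simp

theorem sq2_eq_zero_iff (x y : ℤ) : x ^ 2 + y ^ 2 = 0 ↔ x = 0 ∧ y = 0 := by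
  constructor
  · intro h
    constructor <;> nlinarith [sq_nonneg x, sq_nonneg y]
  · rintro ⟨rfl, rfl⟩; simp

theorem dvd_iff_exists (x y : ℤ) :
    x ∣ y ↔ ∃ k v : ℕ, (y ^ 2 - k * x ^ 2) ^ 2 + (k * x ^ 2 - k - v) ^ 2 = 0 := by
  constructor
  · intro h
    rcases eq_or_ne x 0 with rfl | hx
    · have hy : y = 0 := zero_dvd_iff.1 h
      subst hy
      exact ⟨0, 0, by simp⟩
    · obtain ⟨c, rfl⟩ := h
      have hx2 : 1 ≤ x ^ 2 := by
        have : 0 < x ^ 2 := by positivity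
        omega
      have hc2 : 0 ≤ c ^ 2 := sq_nonneg c
      have hv : 0 ≤ c ^ 2 * x ^ 2 - c ^ 2 := by nlinarith
      refine ⟨(c ^ 2).toNat, (c ^ 2 * x ^ 2 - c ^ 2).toNat, ?_⟩
      rw [Int.toNat_of_nonneg hc2, Int.toNat_of_nonneg hv, sq2_eq_zero_iff]
      constructor <;> ring
  · rintro ⟨k, v, h⟩
    rw [sq2_eq_zero_iff] at h
    have h1 : y ^ 2 = k * x ^ 2 := by linarith [h.1]
    have h2 : x ^ 2 ∣ y ^ 2 := ⟨k, by rw [h1]; ring⟩
    exact (Int.pow_dvd_pow_iff (by norm_num)).1 h2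

theorem dvd_unique (x y : ℤ) (k v k' v' : ℕ)
    (h : (y ^ 2 - k * x ^ 2) ^ 2 + (k * x ^ 2 - k - v) ^ 2 = 0)
    (h' : (y ^ 2 - k' * x ^ 2) ^ 2 + (k' * x ^ 2 - k' - v') ^ 2 = 0) : k = k' ∧ v = v' := by
  rw [sq2_eq_zero_iff] at h h'
  obtain ⟨h1, h2⟩ := h
  obtain ⟨h1', h2'⟩ := h'
  rcases eq_or_ne x 0 with rfl | hx
  · simp only [ne_eq, OfNat.ofNat_ne_zero, not_false_eq_true, zero_pow, mul_zero, zero_sub] at h2 h2'
    omega
  · have e : (k : ℤ) * x ^ 2 = k' * x ^ 2 := by linarith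
    have e1 : (k : ℤ) = k' := mul_right_cancel₀ (pow_ne_zero 2 hx) e
    have e2 : (v : ℤ) = v' := by rw [e1] at h2; linarith
    exact ⟨by exact_mod_cast e1, by exact_mod_cast e2⟩

theorem not_dvd_iff_exists (x y : ℤ) :
    ¬ x ∣ y ↔ ∃ k r v u : ℕ,
      (y ^ 2 - k * x ^ 2 - r - 1) ^ 2 + (x ^ 2 * (x ^ 2 - r - 2) - v) ^ 2
        + (k * x ^ 2 - k - u) ^ 2 = 0 := by
  constructor
  · intro h
    rcases eq_or_ne x 0 with rfl | hx
    · have hy : y ≠ 0 := fun h0 => h (by rw [h0])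
      have hy2 : 1 ≤ y ^ 2 := by
        have : 0 < y ^ 2 := by positivity
        omega
      refine ⟨0, (y ^ 2 - 1).toNat, 0, 0, ?_⟩
      rw [Int.toNat_of_nonneg (by omega), sq3_eq_zero_iff]
      refine ⟨by simp, by simp, by simp⟩
    · have hX : 0 < x ^ 2 := by positivity
      have hnd : ¬ x ^ 2 ∣ y ^ 2 := fun hd => h ((Int.pow_dvd_pow_iff (by norm_num)).1 hd)
      have hs0 : 0 ≤ y ^ 2 % x ^ 2 := Int.emod_nonneg _ hX.ne'
      have hs1 : y ^ 2 % x ^ 2 < x ^ 2 := Int.emod_lt_of_pos _ hX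
      have hs2 : y ^ 2 % x ^ 2 ≠ 0 := fun h0 => hnd (Int.dvd_of_emod_eq_zero h0)
      have hq : 0 ≤ y ^ 2 / x ^ 2 := Int.ediv_nonneg (sq_nonneg y) hX.le
      have hdiv : x ^ 2 * (y ^ 2 / x ^ 2) + y ^ 2 % x ^ 2 = y ^ 2 := Int.mul_ediv_add_emod _ _
      have hv : 0 ≤ x ^ 2 * (x ^ 2 - y ^ 2 % x ^ 2 - 1) := by
        apply mul_nonneg hX.le
        omega
      have hu : 0 ≤ y ^ 2 / x ^ 2 * x ^ 2 - y ^ 2 / x ^ 2 := by nlinarith
      refine ⟨(y ^ 2 / x ^ 2).toNat, (y ^ 2 % x ^ 2 - 1).toNat,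
        (x ^ 2 * (x ^ 2 - y ^ 2 % x ^ 2 - 1)).toNat,
        (y ^ 2 / x ^ 2 * x ^ 2 - y ^ 2 / x ^ 2).toNat, ?_⟩
      rw [Int.toNat_of_nonneg hq, Int.toNat_of_nonneg (by omega : 0 ≤ y ^ 2 % x ^ 2 - 1),
        Int.toNat_of_nonneg hv, Int.toNat_of_nonneg hu, sq3_eq_zero_iff]
      refine ⟨by linarith, by ring, by ring⟩
  · rintro ⟨k, r, v, u, h⟩ hd
    rw [sq3_eq_zero_iff] at h
    obtain ⟨h1, h2, h3⟩ := h
    have hd2 : x ^ 2 ∣ y ^ 2 := pow_dvd_pow_of_dvd hd 2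
    rcases eq_or_ne x 0 with rfl | hx
    · have hy : y ^ 2 = 0 := by simpa using hd2
      simp only [ne_eq, OfNat.ofNat_ne_zero, not_false_eq_true, zero_pow, mul_zero] at h1 h3
      omega
    · have hX : 0 < x ^ 2 := by positivity
      have hr : 0 ≤ x ^ 2 - r - 2 := by
        by_contra hneg
        have : x ^ 2 - r - 2 < 0 := by omega
        have hv0 : (0 : ℤ) ≤ v := Int.natCast_nonneg v
        nlinarith
      have hd3 : x ^ 2 ∣ (r : ℤ) + 1 := by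
        have e : (r : ℤ) + 1 = y ^ 2 - x ^ 2 * k := by linarith
        rw [e]
        exact dvd_sub hd2 (dvd_mul_right _ _)
      have := Int.le_of_dvd (by omega) hd3
      omega

theorem not_dvd_unique (x y : ℤ) (k r v u k' r' v' u' : ℕ)
    (h : (y ^ 2 - k * x ^ 2 - r - 1) ^ 2 + (x ^ 2 * (x ^ 2 - r - 2) - v) ^ 2
        + (k * x ^ 2 - k - u) ^ 2 = 0)
    (h' : (y ^ 2 - k' * x ^ 2 - r' - 1) ^ 2 + (x ^ 2 * (x ^ 2 - r' - 2) - v') ^ 2
        + (k' * x ^ 2 - k' - u') ^ 2 = 0) :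
    k = k' ∧ r = r' ∧ v = v' ∧ u = u' := by
  rw [sq3_eq_zero_iff] at h h'
  obtain ⟨h1, h2, h3⟩ := h
  obtain ⟨h1', h2', h3'⟩ := h'
  rcases eq_or_ne x 0 with rfl | hx
  · simp only [ne_eq, OfNat.ofNat_ne_zero, not_false_eq_true, zero_pow, mul_zero, zero_mul,
      zero_sub] at h1 h2 h3 h1' h2' h3'
    omega
  · have hX : 0 < x ^ 2 := by positivity
    have hr : 0 ≤ x ^ 2 - r - 2 := by
      by_contra hneg
      have : x ^ 2 - r - 2 < 0 := by omega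
      have hv0 : (0 : ℤ) ≤ v := Int.natCast_nonneg v
      nlinarith
    have hr' : 0 ≤ x ^ 2 - r' - 2 := by
      by_contra hneg
      have : x ^ 2 - r' - 2 < 0 := by omega
      have hv0 : (0 : ℤ) ≤ v' := Int.natCast_nonneg v'
      nlinarith
    have e1 := (Int.ediv_emod_unique hX (a := y ^ 2) (q := (k : ℤ)) (r := (r : ℤ) + 1)).2
      ⟨by linarith, by omega, by omega⟩
    have e2 := (Int.ediv_emod_unique hX (a := y ^ 2) (q := (k' : ℤ)) (r := (r' : ℤ) + 1)).2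
      ⟨by linarith, by omega, by omega⟩
    have ek : (k : ℤ) = k' := e1.1.symm.trans e2.1
    have er : (r : ℤ) = r' := by
      have := e1.2.symm.trans e2.2
      omega
    have ev : (v : ℤ) = v' := by rw [er] at h2; linarith
    have eu : (u : ℤ) = u' := by rw [ek] at h3; linarith
    exact ⟨by exact_mod_cast ek, by exact_mod_cast er, by exact_mod_cast ev, by exact_mod_cast eu⟩

end Vale.Agent.H92.P345
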