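import Vale.Agent.H92.P345.Defs

/-!
# Quantifier-free formulas over `(+, ·, =, ≤, ∣)` with natural-number variables
-/

namespace Vale.Agent.H92.P345

/-- The value of the integer polynomial `p` in `A_1..A_n` at the natural numbers `a`. -/
noncomputable def val {n : ℕ} (p : MvPolynomial (Fin n) ℤ) (a : Fin n → ℕ) : ℤ :=
  MvPolynomial.eval (fun i => ((a i : ℕ) : ℤ)) p

/-- Quantifier-free formulas in `n` natural-number variables: Boolean combinations of the atoms
`P = Q`, `P ≤ Q` and `P ∣ Q`, where `P` and `Q` are polynomials with integer coefficients. -/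
inductive Formula (n : ℕ) : Type
  | eq (p q : MvPolynomial (Fin n) ℤ) : Formula n
  | le (p q : MvPolynomial (Fin n) ℤ) : Formula n
  | dvd (p q : MvPolynomial (Fin n) ℤ) : Formula n
  | not (φ : Formula n) : Formula n
  | and (φ ψ : Formula n) : Formula n
  | or (φ ψ : Formula n) : Formula n

/-- Truth of a formula at a point `a ∈ ℕ^n` (divisibility is divisibility in `ℤ`). -/
def Formula.Holds {n : ℕ} : Formula n → (Fin n → ℕ) → Prop
  | Formula.eq p q, a => val p a = val q a
  | Formula.le p q, a => val p a ≤ val q a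
  | Formula.dvd p q, a => val p a ∣ val q a
  | Formula.not φ, a => ¬ φ.Holds a
  | Formula.and φ ψ, a => φ.Holds a ∧ ψ.Holds a
  | Formula.or φ ψ, a => φ.Holds a ∨ ψ.Holds a

end Vale.Agent.H92.P345
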