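import Vale.Agent.H92.P345.Calculus
import Vale.Agent.H92.P345.Arith
import Vale.Agent.H92.P345.Formula

/-!
# Single-fold representations of the atoms and of their negations
-/

namespace Vale.Agent.H92.P345

open MvPolynomial

section

variable {n m : ℕ}

/-- A polynomial in the parameters, viewed as a polynomial in parameters and auxiliary
variables. -/
noncomputable def liftP (m : ℕ) (p : MvPolynomial (Fin n) ℤ) : MvPolynomial (Fin n ⊕ Fin m) ℤ :=
  rename Sum.inl p

/-- The `i`-th auxiliary variable. -/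
noncomputable def auxV (n : ℕ) (i : Fin m) : MvPolynomial (Fin n ⊕ Fin m) ℤ := X (Sum.inr i)

@[simp] theorem valueAt_liftP (p : MvPolynomial (Fin n) ℤ) (a : Fin n → ℕ) (w : Fin m → ℕ) :
    valueAt (liftP m p) a w = val p a := by
  unfold valueAt liftP val
  rw [eval_rename]
  rfl

@[simp] theorem valueAt_auxV (i : Fin m) (a : Fin n → ℕ) (w : Fin m → ℕ) :
    valueAt (auxV n i) a w = (w i : ℤ) := by
  simp [valueAt, auxV]

@[simp] theorem valueAt_add (p q : MvPolynomial (Fin n ⊕ Fin m) ℤ) (a : Fin n → ℕ)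
    (w : Fin m → ℕ) : valueAt (p + q) a w = valueAt p a w + valueAt q a w := by
  simp [valueAt]

@[simp] theorem valueAt_sub (p q : MvPolynomial (Fin n ⊕ Fin m) ℤ) (a : Fin n → ℕ)
    (w : Fin m → ℕ) : valueAt (p - q) a w = valueAt p a w - valueAt q a w := by
  simp [valueAt]

@[simp] theorem valueAt_mul (p q : MvPolynomial (Fin n ⊕ Fin m) ℤ) (a : Fin n → ℕ)
    (w : Fin m → ℕ) : valueAt (p * q) a w = valueAt p a w * valueAt q a w := by
  simp [valueAt]

@[simp] theorem valueAt_pow (p : MvPolynomial (Fin n ⊕ Fin m) ℤ) (k : ℕ) (a : Fin n → ℕ)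
    (w : Fin m → ℕ) : valueAt (p ^ k) a w = valueAt p a w ^ k := by
  simp [valueAt]

@[simp] theorem valueAt_one (a : Fin n → ℕ) (w : Fin m → ℕ) :
    valueAt (1 : MvPolynomial (Fin n ⊕ Fin m) ℤ) a w = 1 := by
  simp [valueAt]

@[simp] theorem valueAt_two (a : Fin n → ℕ) (w : Fin m → ℕ) :
    valueAt (2 : MvPolynomial (Fin n ⊕ Fin m) ℤ) a w = 2 := by
  simp [valueAt]

end

variable {n : ℕ}

theorem atom_eq (p q : MvPolynomial (Fin n) ℤ) : SingleFold {a | val p a = val q a} := by
  refine ⟨0, liftP 0 p - liftP 0 q, ?_, ?_⟩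
  · intro a
    simp only [Set.mem_ofPred_eq, valueAt_sub, valueAt_liftP, sub_eq_zero]
    constructor
    · intro h; exact ⟨fun i => i.elim0, h⟩
    · rintro ⟨_, h⟩; exact h
  · intro a w w' _ _
    funext i
    exact i.elim0

theorem atom_ne (p q : MvPolynomial (Fin n) ℤ) : SingleFold {a | ¬ val p a = val q a} := by
  refine ⟨1, (liftP 1 p - liftP 1 q) ^ 2 - 1 - auxV n 0, ?_, ?_⟩
  · intro a
    simp only [Set.mem_ofPred_eq, valueAt_sub, valueAt_pow, valueAt_liftP, valueAt_one,
      valueAt_auxV]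
    constructor
    · intro h
      have h1 : val p a - val q a ≠ 0 := sub_ne_zero.2 h
      have h2 : 0 < (val p a - val q a) ^ 2 := by positivity
      refine ⟨fun _ => ((val p a - val q a) ^ 2 - 1).toNat, ?_⟩
      rw [Int.toNat_of_nonneg (by omega)]
      ring
    · rintro ⟨w, h⟩ heq
      rw [heq] at h
      simp only [sub_self, ne_eq, OfNat.ofNat_ne_zero, not_false_eq_true, zero_pow,
        zero_sub] at h
      omega
  · intro a w w' h h'
    simp only [valueAt_sub, valueAt_pow, valueAt_liftP, valueAt_one, valueAt_auxV] at h h'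
    funext i
    have hi : i = 0 := Subsingleton.elim _ _
    subst hi
    have : (w 0 : ℤ) = w' 0 := by linarith
    exact_mod_cast this

theorem atom_le (p q : MvPolynomial (Fin n) ℤ) : SingleFold {a | val p a ≤ val q a} := by
  refine ⟨1, liftP 1 q - liftP 1 p - auxV n 0, ?_, ?_⟩
  · intro a
    simp only [Set.mem_ofPred_eq, valueAt_sub, valueAt_liftP, valueAt_auxV]
    constructor
    · intro h
      refine ⟨fun _ => (val q a - val p a).toNat, ?_⟩
      rw [Int.toNat_of_nonneg (by omega)]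
      ring
    · rintro ⟨w, h⟩
      omega
  · intro a w w' h h'
    simp only [valueAt_sub, valueAt_liftP, valueAt_auxV] at h h'
    funext i
    have hi : i = 0 := Subsingleton.elim _ _
    subst hi
    have : (w 0 : ℤ) = w' 0 := by linarith
    exact_mod_cast this

theorem atom_not_le (p q : MvPolynomial (Fin n) ℤ) : SingleFold {a | ¬ val p a ≤ val q a} := by
  refine ⟨1, liftP 1 p - liftP 1 q - 1 - auxV n 0, ?_, ?_⟩
  · intro a
    simp only [Set.mem_ofPred_eq, valueAt_sub, valueAt_liftP, valueAt_auxV, valueAt_one]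
    constructor
    · intro h
      refine ⟨fun _ => (val p a - val q a - 1).toNat, ?_⟩
      rw [Int.toNat_of_nonneg (by omega)]
      ring
    · rintro ⟨w, h⟩
      omega
  · intro a w w' h h'
    simp only [valueAt_sub, valueAt_liftP, valueAt_auxV, valueAt_one] at h h'
    funext i
    have hi : i = 0 := Subsingleton.elim _ _
    subst hi
    have : (w 0 : ℤ) = w' 0 := by linarith
    exact_mod_cast this

theorem atom_dvd (p q : MvPolynomial (Fin n) ℤ) : SingleFold {a | val p a ∣ val q a} := by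
  refine ⟨2, (liftP 2 q ^ 2 - auxV n 0 * liftP 2 p ^ 2) ^ 2
    + (auxV n 0 * liftP 2 p ^ 2 - auxV n 0 - auxV n 1) ^ 2, ?_, ?_⟩
  · intro a
    simp only [Set.mem_ofPred_eq, valueAt_add, valueAt_sub, valueAt_mul, valueAt_pow,
      valueAt_liftP, valueAt_auxV]
    rw [dvd_iff_exists]
    constructor
    · rintro ⟨k, v, h⟩
      exact ⟨![k, v], by simpa using h⟩
    · rintro ⟨w, h⟩
      exact ⟨w 0, w 1, h⟩
  · intro a w w' h h'
    simp only [valueAt_add, valueAt_sub, valueAt_mul, valueAt_pow, valueAt_liftP,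
      valueAt_auxV] at h h'
    obtain ⟨e0, e1⟩ := dvd_unique _ _ _ _ _ _ h h'
    funext i
    fin_cases i
    · exact e0
    · exact e1

theorem atom_not_dvd (p q : MvPolynomial (Fin n) ℤ) :
    SingleFold {a | ¬ val p a ∣ val q a} := by
  refine ⟨4, (liftP 4 q ^ 2 - auxV n 0 * liftP 4 p ^ 2 - auxV n 1 - 1) ^ 2
    + (liftP 4 p ^ 2 * (liftP 4 p ^ 2 - auxV n 1 - 2) - auxV n 2) ^ 2
    + (auxV n 0 * liftP 4 p ^ 2 - auxV n 0 - auxV n 3) ^ 2, ?_, ?_⟩
  · intro a
    simp only [Set.mem_ofPred_eq, valueAt_add, valueAt_sub, valueAt_mul, valueAt_pow,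
      valueAt_liftP, valueAt_auxV, valueAt_one, valueAt_two]
    rw [not_dvd_iff_exists]
    constructor
    · rintro ⟨k, r, v, u, h⟩
      exact ⟨![k, r, v, u], by simpa using h⟩
    · rintro ⟨w, h⟩
      exact ⟨w 0, w 1, w 2, w 3, h⟩
  · intro a w w' h h'
    simp only [valueAt_add, valueAt_sub, valueAt_mul, valueAt_pow, valueAt_liftP,
      valueAt_auxV, valueAt_one, valueAt_two] at h h'
    obtain ⟨e0, e1, e2, e3⟩ := not_dvd_unique _ _ _ _ _ _ _ _ _ _ h h'
    funext i
    fin_cases i
    · exact e0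
    · exact e1
    · exact e2
    · exact e3

/-- Every quantifier-free formula defines a set which, together with its complement, has a
single-fold Diophantine representation. -/
theorem formula_singleFold (φ : Formula n) :
    SingleFold {a | φ.Holds a} ∧ SingleFold {a | ¬ φ.Holds a} := by
  induction φ with
  | eq p q => exact ⟨atom_eq p q, atom_ne p q⟩
  | le p q => exact ⟨atom_le p q, atom_not_le p q⟩
  | dvd p q => exact ⟨atom_dvd p q, atom_not_dvd p q⟩
  | not φ ih =>
    refine ⟨ih.2, ?_⟩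
    have : {a : Fin n → ℕ | ¬ (Formula.not φ).Holds a} = {a | φ.Holds a} := by
      ext a; simp [Formula.Holds]
    rw [this]; exact ih.1
  | and φ ψ ihφ ihψ =>
    constructor
    · have : {a : Fin n → ℕ | (Formula.and φ ψ).Holds a} = {a | φ.Holds a} ∩ {a | ψ.Holds a} := by
        ext a; simp [Formula.Holds]
      rw [this, singleFold_iff_sfg]
      exact SFG.inter ((singleFold_iff_sfg _).1 ihφ.1) ((singleFold_iff_sfg _).1 ihψ.1)
    · have : {a : Fin n → ℕ | ¬ (Formula.and φ ψ).Holds a}
          = {a | ¬ φ.Holds a} ∪ ({a | φ.Holds a} ∩ {a | ¬ ψ.Holds a}) := by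
        ext a
        simp only [Formula.Holds, Set.mem_ofPred_eq, Set.mem_union, Set.mem_inter_iff]
        tauto
      rw [this, singleFold_iff_sfg]
      apply SFG.disjUnion ((singleFold_iff_sfg _).1 ihφ.2)
        (SFG.inter ((singleFold_iff_sfg _).1 ihφ.1) ((singleFold_iff_sfg _).1 ihψ.2))
      intro a h1 h2
      exact h1 h2.1
  | or φ ψ ihφ ihψ =>
    constructor
    · have : {a : Fin n → ℕ | (Formula.or φ ψ).Holds a}
          = {a | φ.Holds a} ∪ ({a | ¬ φ.Holds a} ∩ {a | ψ.Holds a}) := by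
        ext a
        simp only [Formula.Holds, Set.mem_ofPred_eq, Set.mem_union, Set.mem_inter_iff]
        tauto
      rw [this, singleFold_iff_sfg]
      apply SFG.disjUnion ((singleFold_iff_sfg _).1 ihφ.1)
        (SFG.inter ((singleFold_iff_sfg _).1 ihφ.2) ((singleFold_iff_sfg _).1 ihψ.1))
      intro a h1 h2
      exact h2.1 h1
    · have : {a : Fin n → ℕ | ¬ (Formula.or φ ψ).Holds a}
          = {a | ¬ φ.Holds a} ∩ {a | ¬ ψ.Holds a} := by
        ext a
        simp only [Formula.Holds, Set.mem_ofPred_eq, Set.mem_inter_iff]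
        tauto
      rw [this, singleFold_iff_sfg]
      exact SFG.inter ((singleFold_iff_sfg _).1 ihφ.2) ((singleFold_iff_sfg _).1 ihψ.2)

end Vale.Agent.H92.P345
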