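import Vale.Agent.H92.P345.Defs

/-!
# Closure properties of single-fold Diophantine sets

Internally we allow an arbitrary finite type of auxiliary variables; this is equivalent to the
definition with `Fin m`.
-/

namespace Vale.Agent.H92.P345

open MvPolynomial

/-- The value of `p` at parameters `a` and auxiliary values `w`, for arbitrary index types. -/
noncomputable def ev {α β : Type} (p : MvPolynomial (α ⊕ β) ℤ) (a : α → ℕ) (w : β → ℕ) : ℤ :=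
  MvPolynomial.eval (fun i => ((Sum.elim a w i : ℕ) : ℤ)) p

/-- Single-fold representability with an arbitrary finite type of auxiliary variables. -/
def SFG {α : Type} (S : Set (α → ℕ)) : Prop :=
  ∃ (β : Type) (_ : Fintype β) (p : MvPolynomial (α ⊕ β) ℤ),
    (∀ a : α → ℕ, a ∈ S ↔ ∃ w : β → ℕ, ev p a w = 0) ∧
    (∀ (a : α → ℕ) (w w' : β → ℕ), ev p a w = 0 → ev p a w' = 0 → w = w')

theorem ev_rename {α β γ : Type} (f : β → γ) (p : MvPolynomial (α ⊕ β) ℤ) (a : α → ℕ)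
    (w : γ → ℕ) : ev (rename (Sum.map id f) p) a w = ev p a (w ∘ f) := by
  unfold ev
  rw [eval_rename]
  have : (fun i => ((Sum.elim a w i : ℕ) : ℤ)) ∘ Sum.map id f
      = fun i => ((Sum.elim a (w ∘ f) i : ℕ) : ℤ) := by
    funext i
    cases i <;> rfl
  rw [this]

theorem ev_X_inr {α β : Type} (a : α → ℕ) (w : β → ℕ) (b : β) :
    ev (X (Sum.inr b) : MvPolynomial (α ⊕ β) ℤ) a w = (w b : ℤ) := by
  simp [ev]

theorem ev_add {α β : Type} (p q : MvPolynomial (α ⊕ β) ℤ) (a : α → ℕ) (w : β → ℕ) :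
    ev (p + q) a w = ev p a w + ev q a w := by
  simp [ev]

theorem ev_mul {α β : Type} (p q : MvPolynomial (α ⊕ β) ℤ) (a : α → ℕ) (w : β → ℕ) :
    ev (p * q) a w = ev p a w * ev q a w := by
  simp [ev]

theorem ev_pow {α β : Type} (p : MvPolynomial (α ⊕ β) ℤ) (k : ℕ) (a : α → ℕ) (w : β → ℕ) :
    ev (p ^ k) a w = ev p a w ^ k := by
  simp [ev]

theorem ev_sum {α β ι : Type} (s : Finset ι) (f : ι → MvPolynomial (α ⊕ β) ℤ) (a : α → ℕ)
    (w : β → ℕ) : ev (∑ i ∈ s, f i) a w = ∑ i ∈ s, ev (f i) a w := by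
  simp [ev]

theorem singleFold_iff_sfg {n : ℕ} (S : Set (Fin n → ℕ)) : SingleFold S ↔ SFG S := by
  constructor
  · rintro ⟨m, p, h1, h2⟩
    exact ⟨Fin m, inferInstance, p, h1, h2⟩
  · rintro ⟨β, hβ, p, h1, h2⟩
    let e : β ≃ Fin (Fintype.card β) := Fintype.equivFin β
    refine ⟨Fintype.card β, rename (Sum.map id e) p, ?_, ?_⟩
    · intro a
      rw [h1 a]
      constructor
      · rintro ⟨w, hw⟩
        refine ⟨w ∘ e.symm, ?_⟩
        show ev (rename (Sum.map id e) p) a (w ∘ e.symm) = 0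
        rw [ev_rename]
        have : (w ∘ e.symm) ∘ e = w := by funext b; simp
        rw [this]; exact hw
      · rintro ⟨w, hw⟩
        refine ⟨w ∘ e, ?_⟩
        have : ev (rename (Sum.map id e) p) a w = 0 := hw
        rw [ev_rename] at this
        exact this
    · intro a w w' hw hw'
      have e1 : ev (rename (Sum.map id e) p) a w = 0 := hw
      have e2 : ev (rename (Sum.map id e) p) a w' = 0 := hw'
      rw [ev_rename] at e1 e2
      have := h2 a _ _ e1 e2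
      funext i
      have := congrFun this (e.symm i)
      simpa using this

theorem sq_add_sq_eq_zero_iff (x y : ℤ) : x ^ 2 + y ^ 2 = 0 ↔ x = 0 ∧ y = 0 := by
  constructor
  · intro h
    constructor <;> nlinarith [sq_nonneg x, sq_nonneg y]
  · rintro ⟨rfl, rfl⟩; simp

/-- Intersections of single-fold sets are single-fold. -/
theorem SFG.inter {α : Type} {S T : Set (α → ℕ)} (hS : SFG S) (hT : SFG T) : SFG (S ∩ T) := by
  obtain ⟨β₁, _, p₁, h1, u1⟩ := hS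
  obtain ⟨β₂, _, p₂, h2, u2⟩ := hT
  refine ⟨β₁ ⊕ β₂, inferInstance,
    (rename (Sum.map id Sum.inl) p₁) ^ 2 + (rename (Sum.map id Sum.inr) p₂) ^ 2, ?_, ?_⟩
  · intro a
    simp only [Set.mem_inter_iff, h1 a, h2 a, ev_add, ev_pow, ev_rename, sq_add_sq_eq_zero_iff]
    constructor
    · rintro ⟨⟨w₁, hw₁⟩, ⟨w₂, hw₂⟩⟩
      exact ⟨Sum.elim w₁ w₂, by simpa using hw₁, by simpa using hw₂⟩
    · rintro ⟨w, hw₁, hw₂⟩
      exact ⟨⟨_, hw₁⟩, ⟨_, hw₂⟩⟩
  · intro a w w' hw hw'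
    simp only [ev_add, ev_pow, ev_rename, sq_add_sq_eq_zero_iff] at hw hw'
    have e1 := u1 a _ _ hw.1 hw'.1
    have e2 := u2 a _ _ hw.2 hw'.2
    funext i
    cases i with
    | inl b => exact congrFun e1 b
    | inr b => exact congrFun e2 b

theorem sq_add_sum_sq_eq_zero_iff {β : Type} [Fintype β] (x : ℤ) (w : β → ℕ) :
    x ^ 2 + ∑ b : β, ((w b : ℕ) : ℤ) ^ 2 = 0 ↔ x = 0 ∧ w = 0 := by
  constructor
  · intro h
    have h1 : 0 ≤ ∑ b : β, ((w b : ℕ) : ℤ) ^ 2 := Finset.sum_nonneg (fun b _ => sq_nonneg _)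
    have h2 : x ^ 2 = 0 := by nlinarith [sq_nonneg x]
    have h3 : ∑ b : β, ((w b : ℕ) : ℤ) ^ 2 = 0 := by nlinarith [sq_nonneg x]
    refine ⟨by simpa using h2, ?_⟩
    rw [Finset.sum_eq_zero_iff_of_nonneg (fun b _ => sq_nonneg _)] at h3
    funext b
    have := h3 b (Finset.mem_univ b)
    simpa using this
  · rintro ⟨rfl, rfl⟩; simp

/-- Unions of disjoint single-fold sets are single-fold. -/
theorem SFG.disjUnion {α : Type} {S T : Set (α → ℕ)} (hS : SFG S) (hT : SFG T)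
    (hd : ∀ a, a ∈ S → a ∈ T → False) : SFG (S ∪ T) := by
  obtain ⟨β₁, _, p₁, h1, u1⟩ := hS
  obtain ⟨β₂, _, p₂, h2, u2⟩ := hT
  have key : ∀ (a : α → ℕ) (w : β₁ ⊕ β₂ → ℕ),
      ev (((rename (Sum.map id Sum.inl) p₁) ^ 2 + ∑ b : β₂, X (Sum.inr (Sum.inr b)) ^ 2) *
        ((rename (Sum.map id Sum.inr) p₂) ^ 2 + ∑ b : β₁, X (Sum.inr (Sum.inl b)) ^ 2)) a w = 0 ↔
      (ev p₁ a (w ∘ Sum.inl) = 0 ∧ w ∘ Sum.inr = 0) ∨
      (ev p₂ a (w ∘ Sum.inr) = 0 ∧ w ∘ Sum.inl = 0) := by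
    intro a w
    simp only [ev_mul, ev_add, ev_pow, ev_rename, ev_sum, ev_X_inr, mul_eq_zero]
    have e1 := sq_add_sum_sq_eq_zero_iff (ev p₁ a (w ∘ Sum.inl)) (w ∘ Sum.inr)
    have e2 := sq_add_sum_sq_eq_zero_iff (ev p₂ a (w ∘ Sum.inr)) (w ∘ Sum.inl)
    simp only [Function.comp_apply] at e1 e2
    rw [e1, e2]
  refine ⟨β₁ ⊕ β₂, inferInstance,
    ((rename (Sum.map id Sum.inl) p₁) ^ 2 + ∑ b : β₂, X (Sum.inr (Sum.inr b)) ^ 2) *
        ((rename (Sum.map id Sum.inr) p₂) ^ 2 + ∑ b : β₁, X (Sum.inr (Sum.inl b)) ^ 2), ?_, ?_⟩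
  · intro a
    simp only [key, Set.mem_union, h1 a, h2 a]
    constructor
    · rintro (⟨w₁, hw₁⟩ | ⟨w₂, hw₂⟩)
      · exact ⟨Sum.elim w₁ 0, Or.inl ⟨by simpa using hw₁, by funext b; simp⟩⟩
      · exact ⟨Sum.elim 0 w₂, Or.inr ⟨by simpa using hw₂, by funext b; simp⟩⟩
    · rintro ⟨w, (⟨hw, _⟩ | ⟨hw, _⟩)⟩
      · exact Or.inl ⟨_, hw⟩
      · exact Or.inr ⟨_, hw⟩
  · intro a w w' hw hw'
    rw [key] at hw hw'
    have split : ∀ v v' : β₁ ⊕ β₂ → ℕ, v ∘ Sum.inl = v' ∘ Sum.inl → v ∘ Sum.inr = v' ∘ Sum.inr →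
        v = v' := by
      intro v v' e1 e2
      funext i
      cases i with
      | inl b => exact congrFun e1 b
      | inr b => exact congrFun e2 b
    rcases hw with ⟨hw1, hw2⟩ | ⟨hw1, hw2⟩ <;> rcases hw' with ⟨hw1', hw2'⟩ | ⟨hw1', hw2'⟩
    · exact split w w' (u1 a _ _ hw1 hw1') (hw2.trans hw2'.symm)
    · exact absurd ((h2 a).2 ⟨_, hw1'⟩) (fun hT' => hd a ((h1 a).2 ⟨_, hw1⟩) hT')
    · exact absurd ((h2 a).2 ⟨_, hw1⟩) (fun hT' => hd a ((h1 a).2 ⟨_, hw1'⟩) hT')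
    · exact split w w' (hw2.trans hw2'.symm) (u2 a _ _ hw1 hw1')

end Vale.Agent.H92.P345
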