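import Mathlib

/-!
# Single-fold Diophantine representations (problem P345)
-/

namespace Vale.Agent.H92.P345

/-- The value of the integer polynomial `p` in the variables `A_1..A_n, W_1..W_m` at the
natural numbers `a` (parameters) and `w` (auxiliary variables). -/
noncomputable def valueAt {n m : ℕ} (p : MvPolynomial (Fin n ⊕ Fin m) ℤ)
    (a : Fin n → ℕ) (w : Fin m → ℕ) : ℤ :=
  MvPolynomial.eval (fun i => ((Sum.elim a w i : ℕ) : ℤ)) p

/-- `S ⊆ ℕ^n` has a single-fold Diophantine representation: there are `m` and an integer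
polynomial `p` in `n + m` variables such that `a ∈ S` iff `p(a, w) = 0` for some `w ∈ ℕ^m`,
and for every `a` there is at most one such `w`. -/
def SingleFold {n : ℕ} (S : Set (Fin n → ℕ)) : Prop :=
  ∃ (m : ℕ) (p : MvPolynomial (Fin n ⊕ Fin m) ℤ),
    (∀ a : Fin n → ℕ, a ∈ S ↔ ∃ w : Fin m → ℕ, valueAt p a w = 0) ∧
    (∀ (a : Fin n → ℕ) (w w' : Fin m → ℕ), valueAt p a w = 0 → valueAt p a w' = 0 → w = w')

end Vale.Agent.H92.P345
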