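import Vale.Agent.H92.P345.Atoms

/-!
# Projection along a uniquely determined coordinate
-/

namespace Vale.Agent.H92.P345

open MvPolynomial

/-- Move the last parameter to the auxiliary variables. -/
def shiftVar (n m : ℕ) : Fin (n + 1) ⊕ Fin m → Fin n ⊕ Fin (m + 1) :=
  Sum.elim (Fin.lastCases (Sum.inr (Fin.last m)) (fun i => Sum.inl i))
    (fun j => Sum.inr (Fin.castSucc j))

theorem valueAt_rename_shiftVar (n m : ℕ) (p : MvPolynomial (Fin (n + 1) ⊕ Fin m) ℤ)
    (a : Fin n → ℕ) (w : Fin (m + 1) → ℕ) :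
    valueAt (rename (shiftVar n m) p) a w
      = valueAt p (Fin.snoc a (w (Fin.last m))) (fun j => w (Fin.castSucc j)) := by
  unfold valueAt
  rw [eval_rename]
  have : (fun i => ((Sum.elim a w i : ℕ) : ℤ)) ∘ shiftVar n m
      = fun i => ((Sum.elim (Fin.snoc a (w (Fin.last m)) : Fin (n + 1) → ℕ)
          (fun j => w (Fin.castSucc j)) i : ℕ) : ℤ) := by
    funext i
    cases i with
    | inl i =>
      refine Fin.lastCases ?_ (fun i' => ?_) i
      · simp [shiftVar]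
      · simp [shiftVar]
    | inr j => simp [shiftVar]
  rw [this]

/-- If `S ⊆ ℕ^{n+1}` is single-fold and every `a ∈ ℕ^n` has at most one `b` with `(a, b) ∈ S`,
then the projection of `S` to `ℕ^n` is single-fold. -/
theorem singleFold_proj (n : ℕ) (S : Set (Fin (n + 1) → ℕ)) (hS : SingleFold S)
    (hu : ∀ (a : Fin n → ℕ) (b b' : ℕ),
      (Fin.snoc a b : Fin (n + 1) → ℕ) ∈ S → (Fin.snoc a b' : Fin (n + 1) → ℕ) ∈ S → b = b') :
    SingleFold {a : Fin n → ℕ | ∃ b : ℕ, (Fin.snoc a b : Fin (n + 1) → ℕ) ∈ S} := by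
  obtain ⟨m, p, h1, h2⟩ := hS
  refine ⟨m + 1, rename (shiftVar n m) p, ?_, ?_⟩
  · intro a
    simp only [Set.mem_ofPred_eq, valueAt_rename_shiftVar]
    constructor
    · rintro ⟨b, hb⟩
      obtain ⟨w, hw⟩ := (h1 _).1 hb
      refine ⟨Fin.snoc w b, ?_⟩
      simpa using hw
    · rintro ⟨w, hw⟩
      exact ⟨w (Fin.last m), (h1 _).2 ⟨_, hw⟩⟩
  · intro a w w' hw hw'
    rw [valueAt_rename_shiftVar] at hw hw'
    have hb : w (Fin.last m) = w' (Fin.last m) :=
      hu a _ _ ((h1 _).2 ⟨_, hw⟩) ((h1 _).2 ⟨_, hw'⟩)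
    rw [← hb] at hw'
    have hrest := h2 _ _ _ hw hw'
    funext i
    refine Fin.lastCases ?_ (fun i' => ?_) i
    · exact hb
    · exact congrFun hrest i'

end Vale.Agent.H92.P345
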